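import Crest.Agent.R247.Reg.Dist

/-! # Row 247, block Reg: smoothness through decay of the Fourier transform, gluing -/

set_option autoImplicit false
set_option linter.unusedSectionVars false
set_option linter.unusedVariables false
open MeasureTheory Filter Set Metric
open scoped ENNReal NNReal Topology ContDiff FourierTransform Real
open Crest.GeometryTopology.CoordMetric

noncomputable section
namespace Crest.Agent.R247.Reg

variable {n : ℕ} {Ω : Set (E n)}

theorem cos_smooth (ξ : E n) (θ : ℝ) : ContDiff ℝ ∞ fun x : E n => Real.cos (inner ℝ ξ x + θ) :=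
  Real.contDiff_cos.comp ((contDiff_const.inner ℝ contDiff_id).add contDiff_const)

/-- Plane waves. -/
def cosC (Ω : Set (E n)) (ξ : E n) (θ : ℝ) : Cz Ω :=
  ⟨fun x => Real.cos (inner ℝ ξ x + θ), (cos_smooth ξ θ).contDiffOn⟩

theorem pd_cos (ξ : E n) (θ : ℝ) (j : Fin n) (x : E n) :
    pderiv j (fun x : E n => Real.cos (inner ℝ ξ x + (θ - π / 2))) x =
      ξ j * Real.cos (inner ℝ ξ x + θ) := by
  have h1 : HasFDerivAt (fun x : E n => inner ℝ ξ x + (θ - π / 2)) (innerSL ℝ ξ) x :=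
    (innerSL ℝ ξ).hasFDerivAt.add_const _
  have h2 := h1.cos
  unfold pderiv
  rw [h2.fderiv, ← add_sub_assoc, Real.sin_sub_pi_div_two]
  simp [EuclideanSpace.inner_single_right, mul_comm]

theorem norm_le_sum (ξ : E n) : ‖ξ‖ ≤ ∑ j, |ξ j| := by
  rw [EuclideanSpace.norm_eq]
  refine Real.sqrt_le_iff.2 ⟨Finset.sum_nonneg fun j _ => abs_nonneg _, ?_⟩
  exact Finset.sum_sq_le_sq_sum_of_nonneg fun j _ => abs_nonneg _

theorem decay (hΩ : IsOpen Ω) : ∀ (m : ℕ) (T : Dz Ω →ₗ[ℝ] ℝ), (∀ k, Hk k T) → ∀ χ : Dz Ω,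
    ∃ C, ∀ (ξ : E n) (θ : ℝ), ‖ξ‖ ^ m * |T (mulL hΩ (cosC Ω ξ θ) χ)| ≤ C
  | 0, T, hT, χ => by
    obtain ⟨C, hC, h⟩ := (hT 0).bd _ (Dz.ts χ).2 (Dz.sub χ)
    refine ⟨C * (1 * N2 χ.1), fun ξ θ => ?_⟩
    rw [pow_zero, one_mul]
    refine (h _ (tsupport_mul_subset_right (f := (cosC Ω ξ θ).1) (g := χ.1))).trans
      (mul_le_mul_of_nonneg_left (N2_le (Dz.ts χ).memLp zero_le_one fun x => ?_) hC)
    rw [mulL_val, abs_mul]
    exact mul_le_mul_of_nonneg_right (Real.abs_cos_le_one _) (abs_nonneg _)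
  | m + 1, T, hT, χ => by
    choose C hC using fun j => decay hΩ m (T ∘ₗ pdL Ω j) (fun k => (hT (k + 1)).2 j) χ
    choose C' hC' using fun j => decay hΩ m T hT (pdL Ω j χ)
    refine ⟨∑ j, (C j + C' j), fun ξ θ => ?_⟩
    have e : ∀ j, ξ j * T (mulL hΩ (cosC Ω ξ θ) χ) =
        T (pdL Ω j (mulL hΩ (cosC Ω ξ (θ - π / 2)) χ)) -
          T (mulL hΩ (cosC Ω ξ (θ - π / 2)) (pdL Ω j χ)) := by
      intro j
      rw [mul_pd, map_sub, sub_sub_cancel, ← smul_eq_mul, ← map_smul]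
      congr 1
      refine Subtype.ext (funext fun x => ?_)
      change ξ j * (Real.cos (inner ℝ ξ x + θ) * χ.1 x) =
        pderiv j (fun x : E n => Real.cos (inner ℝ ξ x + (θ - π / 2))) x * χ.1 x
      rw [pd_cos, mul_assoc]
    calc ‖ξ‖ ^ (m + 1) * |T (mulL hΩ (cosC Ω ξ θ) χ)|
        ≤ ‖ξ‖ ^ m * (∑ j, |ξ j|) * |T (mulL hΩ (cosC Ω ξ θ) χ)| := by
          rw [pow_succ]
          gcongr
          exact norm_le_sum ξ
      _ = ∑ j, ‖ξ‖ ^ m * |ξ j * T (mulL hΩ (cosC Ω ξ θ) χ)| := by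
          simp only [Finset.mul_sum, Finset.sum_mul, abs_mul, mul_assoc]
      _ ≤ _ := Finset.sum_le_sum fun j _ => by
          rw [e]
          refine le_trans ?_ (add_le_add (hC j ξ (θ - π / 2)) (hC' j ξ (θ - π / 2)))
          rw [← mul_add]
          exact mul_le_mul_of_nonneg_left (abs_sub _ _) (by positivity)

theorem four_flip {f g : E n → ℂ} (hf : Integrable f) (hg : Integrable g) :
    ∫ w, 𝓕 f w * g w = ∫ x, f x * 𝓕 g x := by
  simpa using! VectorFourier.integral_fourierIntegral_smul_eq_flip (L := innerₗ (E n))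
    Real.continuous_fourierChar continuous_inner hf hg

theorem four_norm {u : E n → ℝ} (hu : Integrable u) (w : E n) :
    ‖𝓕 (fun x => (u x : ℂ)) w‖ ≤ |∫ x, u x * Real.cos (inner ℝ ((-2 * π) • w) x + 0)| +
      |∫ x, u x * Real.cos (inner ℝ ((-2 * π) • w) x + -(π / 2))| := by
  have hI : Integrable fun v : E n =>
      Complex.exp (((-2 * π * inner ℝ v w : ℝ) : ℂ) * Complex.I) • (u v : ℂ) := by
    refine hu.ofReal.bdd_mul (c := 1) (by fun_prop) (Eventually.of_forall fun v => ?_)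
    rw [Complex.norm_exp_ofReal_mul_I]
  rw [Real.fourier_eq']
  refine (Complex.norm_le_abs_re_add_abs_im _).trans (le_of_eq ?_)
  congr 2
  · rw [← Complex.reCLM_apply, ← Complex.reCLM.integral_comp_comm hI]
    congr 1; funext v
    rw [Complex.reCLM_apply, smul_eq_mul, Complex.re_mul_ofReal, Complex.exp_ofReal_mul_I_re,
      add_zero, real_inner_smul_left, real_inner_comm, mul_comm]
  · rw [← Complex.imCLM_apply, ← Complex.imCLM.integral_comp_comm hI]
    congr 1; funext v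
    rw [Complex.imCLM_apply, smul_eq_mul, Complex.im_mul_ofReal, Complex.exp_ofReal_mul_I_im,
      ← sub_eq_add_neg, Real.cos_sub_pi_div_two, real_inner_smul_left, real_inner_comm, mul_comm]

theorem four_smooth {u : E n → ℝ} (hu : Integrable u)
    (hdec : ∀ m : ℕ, ∃ C, ∀ (ξ : E n) (θ : ℝ),
      ‖ξ‖ ^ m * |∫ x, u x * Real.cos (inner ℝ ξ x + θ)| ≤ C) :
    ∃ v : E n → ℝ, ContDiff ℝ ∞ v ∧ ∀ᵐ x, u x = v x := by
  have hu' : Integrable fun x => (u x : ℂ) := hu.ofReal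
  set F : E n → ℂ := 𝓕 (fun x => (u x : ℂ)) with hF
  have hFc : Continuous F :=
    VectorFourier.fourierIntegral_continuous Real.continuous_fourierChar
      (innerSL ℝ).continuous₂ hu'
  have hb : ∀ m : ℕ, ∃ C, ∀ w, ‖w‖ ^ m * ‖F w‖ ≤ C := by
    intro m
    obtain ⟨C, hC⟩ := hdec m
    refine ⟨C + C, fun w => ?_⟩
    have h1 : ‖w‖ ≤ ‖(-2 * π) • w‖ := by
      rw [norm_smul, Real.norm_eq_abs, neg_mul, abs_neg, abs_of_pos Real.two_pi_pos]
      nlinarith [Real.two_le_pi, norm_nonneg w]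
    refine le_trans ?_ (add_le_add (hC ((-2 * π) • w) 0) (hC ((-2 * π) • w) (-(π / 2))))
    rw [← mul_add]
    exact mul_le_mul (pow_le_pow_left₀ (norm_nonneg _) h1 m) (four_norm hu w) (norm_nonneg _)
      (by positivity)
  have hi : ∀ m : ℕ, Integrable fun w => ‖w‖ ^ m * ‖F w‖ := by
    intro m
    let N := Module.finrank ℝ (E n) + 1
    obtain ⟨C, hC⟩ := hb m
    obtain ⟨C', hC'⟩ := hb (N + m)
    have h0 := (integrable_one_add_norm (E := E n) (μ := volume) (r := (N : ℝ))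
      (by simp [N])).const_mul (2 ^ (N - 1) * (C + C'))
    refine h0.mono' (by fun_prop) (Eventually.of_forall fun w => ?_)
    have hp : 0 < 1 + ‖w‖ := by positivity
    rw [Real.norm_eq_abs, abs_of_nonneg (by positivity), Real.rpow_neg hp.le, Real.rpow_natCast,
      ← div_eq_mul_inv, le_div_iff₀ (by positivity)]
    have h1 := add_pow_le zero_le_one (norm_nonneg w) N
    have h2 := hC w
    have h3 := hC' w
    rw [pow_add] at h3
    calc ‖w‖ ^ m * ‖F w‖ * (1 + ‖w‖) ^ N ≤ ‖w‖ ^ m * ‖F w‖ * (2 ^ (N - 1) * (1 ^ N + ‖w‖ ^ N)) := by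
          gcongr
      _ = 2 ^ (N - 1) * (‖w‖ ^ m * ‖F w‖ + ‖w‖ ^ N * ‖w‖ ^ m * ‖F w‖) := by rw [one_pow]; ring
      _ ≤ _ := by gcongr
  have hFi : Integrable F := by
    have := hi 0
    simp only [pow_zero, one_mul] at this
    exact (integrable_norm_iff hFc.aestronglyMeasurable).1 this
  have hV : ContDiff ℝ ∞ (𝓕 fun w => F (-w)) := Real.contDiff_fourier (N := ⊤) fun m _ => by
    simpa using (hi m).comp_neg
  refine ⟨fun x => (𝓕 (fun w => F (-w)) x).re, Complex.reCLM.contDiff.comp hV, ?_⟩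
  have hae := ae_eq_of_integral_contDiff_smul_eq hu'.locallyIntegrable
    hV.continuous.locallyIntegrable fun g hg hgc => by
      have hs : ContDiff ℝ ∞ fun x => (g x : ℂ) := Complex.ofRealCLM.contDiff.comp hg
      have hc : HasCompactSupport fun x => (g x : ℂ) :=
        hgc.comp_left (g := fun t : ℝ => (t : ℂ)) Complex.ofReal_zero
      have hgi : Integrable fun x => (g x : ℂ) := hs.continuous.integrable_of_hasCompactSupport hc
      have hFg : Integrable (𝓕 fun x => (g x : ℂ)) := (𝓕 (hc.toSchwartzMap hs)).integrable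
      have hinv := hs.continuous.fourier_fourierInv_eq hgi hFg
      have e0 : (𝓕⁻ fun x => (g x : ℂ)) = fun w => 𝓕 (fun x => (g x : ℂ)) (-w) :=
        funext fun w => Real.fourierInv_eq_fourier_neg _ w
      rw [e0] at hinv
      have a1 := four_flip hu' hFg.comp_neg
      have a2 := four_flip hFi.comp_neg hgi
      rw [hinv] at a1
      have a3 : ∫ w, F w * 𝓕 (fun x => (g x : ℂ)) (-w) = ∫ w, F (-w) * 𝓕 (fun x => (g x : ℂ)) w := by
        rw [← integral_neg_eq_self]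
        simp only [neg_neg]
      simp only [Complex.real_smul, mul_comm (g _ : ℂ)]
      rw [← a1, a2, ← a3]
  filter_upwards [hae] with x hx
  rw [← hx, Complex.ofReal_re]

theorem glue (hΩ : IsOpen Ω) {u : E n → ℝ}
    (h : ∀ x ∈ Ω, ∃ O, IsOpen O ∧ x ∈ O ∧ ∃ v : E n → ℝ, ContDiff ℝ ∞ v ∧ ∀ᵐ y, y ∈ O → u y = v y) :
    ∃ v : E n → ℝ, ContDiffOn ℝ ∞ v Ω ∧ ∀ᵐ y, y ∈ Ω → u y = v y := by
  choose! O hO hx v hv hae using h
  have hloc : ∀ x ∈ Ω, ∀ y ∈ Ω, y ∈ O x → v y y = v x y := by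
    intro x hxΩ y hyΩ hy
    have hop : IsOpen (O x ∩ O y) := (hO x hxΩ).inter (hO y hyΩ)
    refine Measure.eqOn_open_of_ae_eq (μ := volume) ?_ hop (hv y hyΩ).continuous.continuousOn
      (hv x hxΩ).continuous.continuousOn ⟨hy, hx y hyΩ⟩
    rw [EventuallyEq, ae_restrict_iff' hop.measurableSet]
    filter_upwards [hae x hxΩ, hae y hyΩ] with z h1 h2 hz
    rw [← h1 hz.1, ← h2 hz.2]
  refine ⟨fun y => v y y, fun x hxΩ => ?_, ?_⟩
  · refine ((hv x hxΩ).contDiffAt.congr_of_eventuallyEq ?_).contDiffWithinAt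
    filter_upwards [hΩ.mem_nhds hxΩ, (hO x hxΩ).mem_nhds (hx x hxΩ)] with y h1 h2
    exact hloc x hxΩ y h1 h2
  · rw [ae_iff]
    refine measure_null_of_locally_null _ fun x hxs => ?_
    have hxΩ : x ∈ Ω := by
      by_contra h0
      exact hxs fun h1 => absurd h1 h0
    refine ⟨{y | ¬(y ∈ O x → u y = v x y)}, ?_, ae_iff.1 (hae x hxΩ)⟩
    filter_upwards [self_mem_nhdsWithin, nhdsWithin_le_nhds ((hO x hxΩ).mem_nhds (hx x hxΩ))]
      with y h1 h2
    intro h3
    exact h1 fun h4 => by rw [hloc x hxΩ y h4 h2]; exact h3 h2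

end Crest.Agent.R247.Reg
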