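import Crest.Agent.R247.Defs

/-! # Row 247, block Reg: `L²` norm, partial derivatives, Riesz, Young -/

set_option autoImplicit false
set_option linter.unusedSectionVars false
set_option linter.unusedVariables false
open MeasureTheory Filter Set Metric
open scoped ENNReal NNReal Topology ContDiff
open Crest.GeometryTopology.CoordMetric

noncomputable section
namespace Crest.Agent.R247.Reg

variable {n : ℕ}

/-- The `L²` norm. -/
def N2 (f : E n → ℝ) : ℝ := Real.sqrt (∫ x, f x ^ 2)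

theorem N2_nonneg (f : E n → ℝ) : 0 ≤ N2 f := Real.sqrt_nonneg _

theorem N2_sq (f : E n → ℝ) : N2 f ^ 2 = ∫ x, f x ^ 2 :=
  Real.sq_sqrt (integral_nonneg fun x => sq_nonneg _)

theorem inner_toLp {f g : E n → ℝ} (hf : MemLp f 2 volume) (hg : MemLp g 2 volume) :
    inner ℝ (hf.toLp f) (hg.toLp g) = ∫ x, f x * g x := by
  rw [MeasureTheory.L2.inner_def]
  refine integral_congr_ae ?_
  filter_upwards [hf.coeFn_toLp, hg.coeFn_toLp] with x hx hy
  rw [hx, hy, RCLike.inner_apply, conj_trivial, mul_comm]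

theorem norm_toLp_eq {f : E n → ℝ} (hf : MemLp f 2 volume) : ‖hf.toLp f‖ = N2 f := by
  have h := inner_toLp hf hf
  rw [real_inner_self_eq_norm_sq] at h
  unfold N2
  rw [show (∫ x, f x ^ 2) = ‖hf.toLp f‖ ^ 2 by rw [h]; simp only [sq]]
  exact (Real.sqrt_sq (norm_nonneg _)).symm

theorem cs {f g : E n → ℝ} (hf : MemLp f 2 volume) (hg : MemLp g 2 volume) :
    |∫ x, f x * g x| ≤ N2 f * N2 g := by
  rw [← inner_toLp hf hg, ← norm_toLp_eq hf, ← norm_toLp_eq hg]
  exact abs_real_inner_le_norm _ _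

theorem N2_le {f g : E n → ℝ} (hg : MemLp g 2 volume) {M : ℝ} (hM : 0 ≤ M)
    (h : ∀ x, |f x| ≤ M * |g x|) : N2 f ≤ M * N2 g := by
  have h1 : ∫ x, f x ^ 2 ≤ ∫ x, M ^ 2 * g x ^ 2 := by
    refine integral_mono_of_nonneg (Eventually.of_forall fun x => sq_nonneg _)
      (hg.integrable_sq.const_mul _) (Eventually.of_forall fun x => ?_)
    have := h x
    have h2 : |f x| ^ 2 ≤ (M * |g x|) ^ 2 := pow_le_pow_left₀ (abs_nonneg _) this 2
    simpa [mul_pow] using h2
  rw [integral_const_mul, ← N2_sq, ← N2_sq, ← mul_pow] at h1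
  exact (pow_le_pow_iff_left₀ (N2_nonneg _) (mul_nonneg hM (N2_nonneg _)) two_ne_zero).1 h1

/-- Test functions on `ℝⁿ`. -/
def Ts (φ : E n → ℝ) : Prop := ContDiff ℝ ∞ φ ∧ HasCompactSupport φ

theorem Ts.cont {φ : E n → ℝ} (h : Ts φ) : Continuous φ := h.1.continuous

theorem Ts.memLp {φ : E n → ℝ} (h : Ts φ) : MemLp φ 2 volume :=
  h.cont.memLp_of_hasCompactSupport h.2

theorem Ts.integrable {φ : E n → ℝ} (h : Ts φ) : Integrable φ :=
  h.cont.integrable_of_hasCompactSupport h.2

theorem pd_smooth {f : E n → ℝ} (hf : ContDiff ℝ ∞ f) (i : Fin n) : ContDiff ℝ ∞ (pderiv i f) :=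
  (hf.fderiv_right (m := ∞) (by simp)).clm_apply contDiff_const

theorem pd_smoothOn {Ω : Set (E n)} (hΩ : IsOpen Ω) {f : E n → ℝ} (hf : ContDiffOn ℝ ∞ f Ω)
    (i : Fin n) : ContDiffOn ℝ ∞ (pderiv i f) Ω :=
  (hf.fderiv_of_isOpen hΩ (m := ∞) (by simp)).clm_apply contDiffOn_const

theorem pd_tsupport (f : E n → ℝ) (i : Fin n) : tsupport (pderiv i f) ⊆ tsupport f := by
  refine closure_minimal (fun x hx => ?_) (isClosed_tsupport f)
  by_contra h
  apply hx
  have : fderiv ℝ f x = 0 := by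
    by_contra h2
    exact h (support_fderiv_subset ℝ h2)
  simp [pderiv, this]

theorem Ts.pd {φ : E n → ℝ} (h : Ts φ) (i : Fin n) : Ts (pderiv i φ) :=
  ⟨pd_smooth h.1 i, h.2.of_isClosed_subset (isClosed_tsupport _) (pd_tsupport φ i)⟩

theorem pd_comm {f : E n → ℝ} (hf : ContDiff ℝ ∞ f) (i j : Fin n) :
    pderiv i (pderiv j f) = pderiv j (pderiv i f) := by
  funext x
  have h2 : ContDiffAt ℝ 2 f x := (hf.of_le ENat.LEInfty.out).contDiffAt
  have hs := h2.isSymmSndFDerivAt (by simp)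
  have hd : DifferentiableAt ℝ (fderiv ℝ f) x :=
    ((hf.fderiv_right (m := ∞) (by simp)).differentiable (by simp)) x
  have key : ∀ a b : Fin n, pderiv a (pderiv b f) x =
      fderiv ℝ (fderiv ℝ f) x (EuclideanSpace.single a 1) (EuclideanSpace.single b 1) := by
    intro a b
    unfold pderiv
    rw [fderiv_clm_apply hd (differentiableAt_const _)]
    simp
  rw [key, key, hs.eq]

theorem pd_mul {f g : E n → ℝ} {x : E n} (hf : DifferentiableAt ℝ f x)
    (hg : DifferentiableAt ℝ g x) (i : Fin n) :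
    pderiv i (fun y => f y * g y) x = pderiv i f x * g x + f x * pderiv i g x := by
  unfold pderiv
  rw [fderiv_fun_mul hf hg]
  simp only [add_apply, smul_apply, smul_eq_mul]
  ring

/-- Integration by parts against a test function. -/
theorem ibp {f φ : E n → ℝ} (hf : ContDiff ℝ ∞ f) (hφ : Ts φ) (i : Fin n) :
    ∫ x, f x * pderiv i φ x = -∫ x, pderiv i f x * φ x := by
  refine integral_mul_fderiv_eq_neg_fderiv_mul_of_integrable ?_ ?_ ?_
    (fun x _ => hf.differentiable (by simp) x) (fun x _ => hφ.1.differentiable (by simp) x)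
  · exact ((pd_smooth hf i).continuous.mul hφ.cont).integrable_of_hasCompactSupport hφ.2.mul_left
  · exact (hf.continuous.mul (hφ.pd i).cont).integrable_of_hasCompactSupport (hφ.pd i).2.mul_left
  · exact (hf.continuous.mul hφ.cont).integrable_of_hasCompactSupport hφ.2.mul_left

/-- Hahn-Banach and Riesz. -/
theorem riesz {V : Type*} [AddCommGroup V] [Module ℝ V] (ι : V →ₗ[ℝ] (E n → ℝ))
    (hι : ∀ v, MemLp (ι v) 2 volume) (S : V →ₗ[ℝ] ℝ) {C : ℝ} (hC : 0 ≤ C)
    (h : ∀ v, |S v| ≤ C * N2 (ι v)) :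
    ∃ g : E n → ℝ, MemLp g 2 volume ∧ ∀ v, S v = ∫ x, g x * ι v x := by
  let T : V →ₗ[ℝ] Lp ℝ 2 (volume : Measure (E n)) :=
    { toFun := fun v => (hι v).toLp (ι v)
      map_add' := fun u v => by
        rw [← MemLp.toLp_add]
        exact MemLp.toLp_congr _ _ (by rw [map_add])
      map_smul' := fun c v => by
        rw [RingHom.id_apply, ← MemLp.toLp_const_smul]
        exact MemLp.toLp_congr _ _ (by rw [map_smul]) }
  have hT : ∀ v, T v = (hι v).toLp (ι v) := fun _ => rfl
  have h' : ∀ v, ‖S v‖ ≤ C * ‖T v‖ := fun v => by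
    rw [hT, norm_toLp_eq]; exact h v
  obtain ⟨σ, hσ⟩ := T.rangeRestrict.exists_rightInverse_of_surjective T.range_rangeRestrict
  have hσ' : ∀ s : LinearMap.range T, T (σ s) = s := fun s =>
    congrArg Subtype.val (LinearMap.congr_fun hσ s)
  let p : Seminorm ℝ (Lp ℝ 2 (volume : Measure (E n))) := Seminorm.of (fun w => C * ‖w‖)
    (fun w w' => by
      rw [← mul_add]
      exact mul_le_mul_of_nonneg_left (norm_add_le _ _) hC)
    (fun c w => by
      simp only [norm_smul]
      ring)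
  obtain ⟨Φ, hΦ, hΦp⟩ := Module.Dual.exists_extension_of_le_seminorm (LinearMap.range T)
    (S.comp σ) (p := p) fun s => by
      have := h' (σ s)
      rwa [hσ'] at this
  have hS : ∀ v, S v = Φ (T v) := fun v => by
    have e1 := hΦ ⟨T v, v, rfl⟩
    have e2 := h' (v - σ ⟨T v, v, rfl⟩)
    rw [map_sub T, hσ', map_sub] at e2
    simp only [sub_self, norm_zero, mul_zero, norm_le_zero_iff, sub_eq_zero] at e2
    exact e2.trans e1.symm
  let z := (InnerProductSpace.toDual ℝ _).symm (Φ.mkContinuous C hΦp)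
  refine ⟨z, Lp.memLp z, fun v => ?_⟩
  rw [hS, ← inner_toLp (Lp.memLp z) (hι v), Lp.toLp_coeFn, InnerProductSpace.toDual_symm_apply]
  rfl

/-- Young's inequality `L¹ * L² ⊆ L²` in majorant form. -/
theorem young {k w R : E n → ℝ} (hk : Continuous k) (hkc : HasCompactSupport k)
    (hk0 : ∀ x, 0 ≤ k x) (hw : MemLp w 2 volume) (hR : AEStronglyMeasurable R volume)
    (hle : ∀ x, |R x| ≤ ∫ y, |w y| * k (x - y)) :
    MemLp R 2 volume ∧ N2 R ≤ (∫ x, k x) * N2 w := by
  have hki : Integrable k := hk.integrable_of_hasCompactSupport hkc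
  have hI0 : 0 ≤ ∫ x, k x := integral_nonneg hk0
  obtain ⟨B, hB⟩ := (hk.sqrt).bounded_above_of_compact_support
    (hkc.comp_left (g := Real.sqrt) Real.sqrt_zero)
  have hw2 : Integrable fun y => w y ^ 2 := hw.integrable_sq
  let G : E n → ℝ := fun x => ∫ y, w y ^ 2 * k (x - y)
  have hG : Integrable G := hw2.integrable_convolution (ContinuousLinearMap.mul ℝ ℝ) hki
  have hGi : ∫ x, G x = (∫ y, w y ^ 2) * ∫ x, k x :=
    integral_convolution (ContinuousLinearMap.mul ℝ ℝ) hw2 hki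
  have hpt : ∀ x, R x ^ 2 ≤ (∫ x, k x) * G x := by
    intro x
    have hc : Continuous fun y => Real.sqrt (k (x - y)) := by fun_prop
    have hcs : HasCompactSupport fun y => Real.sqrt (k (x - y)) :=
      (hkc.comp_homeomorph (Homeomorph.subLeft x)).comp_left (g := Real.sqrt) Real.sqrt_zero
    have h1 : MemLp (fun y => Real.sqrt (k (x - y))) 2 volume := hc.memLp_of_hasCompactSupport hcs
    have h2 : MemLp (fun y => |w y| * Real.sqrt (k (x - y))) 2 volume := by
      refine (hw.const_mul B).of_le (hw.1.norm.mul hc.aestronglyMeasurable)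
        (Eventually.of_forall fun y => ?_)
      have := hB (x - y)
      rw [norm_mul, norm_mul, mul_comm, Real.norm_eq_abs |w y|, abs_abs, Real.norm_eq_abs (w y)]
      exact mul_le_mul_of_nonneg_right (this.trans (le_abs_self B)) (abs_nonneg _)
    have h3 := cs h1 h2
    have e1 : (∫ y, Real.sqrt (k (x - y)) * (|w y| * Real.sqrt (k (x - y)))) =
        ∫ y, |w y| * k (x - y) := by
      congr 1; funext y
      rw [mul_left_comm, Real.mul_self_sqrt (hk0 _)]
    have e2 : N2 (fun y => Real.sqrt (k (x - y))) ^ 2 = ∫ x, k x := by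
      rw [N2_sq]
      simp only [Real.sq_sqrt (hk0 _)]
      exact integral_sub_left_eq_self k volume x
    have e3 : N2 (fun y => |w y| * Real.sqrt (k (x - y))) ^ 2 = G x := by
      rw [N2_sq]
      simp only [mul_pow, Real.sq_sqrt (hk0 _), sq_abs, G]
    rw [e1] at h3
    have h4 : |R x| ≤ _ := (hle x).trans ((le_abs_self _).trans h3)
    have h5 := pow_le_pow_left₀ (abs_nonneg _) h4 2
    rwa [sq_abs, mul_pow, e2, e3] at h5
  have hR2 : Integrable fun x => R x ^ 2 := by
    refine (hG.const_mul (∫ x, k x)).mono' (hR.pow 2) (Eventually.of_forall fun x => ?_)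
    rw [Real.norm_eq_abs, abs_of_nonneg (sq_nonneg _)]
    exact hpt x
  refine ⟨(memLp_two_iff_integrable_sq hR).2 hR2, ?_⟩
  have h6 : ∫ x, R x ^ 2 ≤ ∫ x, (∫ x, k x) * G x := integral_mono hR2 (hG.const_mul _) hpt
  rw [integral_const_mul, hGi, ← N2_sq, ← N2_sq] at h6
  refine (pow_le_pow_iff_left₀ (N2_nonneg _) (mul_nonneg hI0 (N2_nonneg _)) two_ne_zero).1 ?_
  calc N2 R ^ 2 ≤ _ := h6
    _ = _ := by ring

end Crest.Agent.R247.Reg
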