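import Crest.Agent.R247.Reg.Mol

/-! # Row 247, block Reg: the `H²` estimate -/

set_option autoImplicit false
set_option linter.unusedSectionVars false
set_option linter.unusedVariables false
open MeasureTheory Filter Set Metric
open scoped ENNReal NNReal Topology ContDiff
open Crest.GeometryTopology.CoordMetric

noncomputable section
namespace Crest.Agent.R247.Reg

variable {n : ℕ}

theorem Ts.int_mul {φ f : E n → ℝ} (hφ : Ts φ) (hf : Continuous f) :
    Integrable fun x => f x * φ x :=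
  (hf.mul hφ.cont).integrable_of_hasCompactSupport hφ.2.mul_left

/-- Friedrichs' commutator estimate. -/
theorem commut {A w σ : E n → ℝ} (hA : Continuous A) {L ε M : ℝ} (hL0 : 0 ≤ L) (hε : 0 ≤ ε)
    (hL : ∀ x y, |A x - A y| ≤ L * ‖x - y‖) (hw : MemLp w 2 volume) (hσ : Ts σ)
    (hs : tsupport σ ⊆ closedBall 0 ε) (hM : ε * ∫ z, |σ z| ≤ M) :
    MemLp (fun x => cv (fun y => A y * w y) σ x - A x * cv w σ x) 2 volume ∧
      N2 (fun x => cv (fun y => A y * w y) σ x - A x * cv w σ x) ≤ L * M * N2 w := by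
  have hwl : LocallyIntegrable w := hw.locallyIntegrable (by norm_num)
  have hAw : LocallyIntegrable fun y => A y * w y := hwl.continuous_mul hA
  have hkc : Continuous fun z => L * ε * |σ z| := continuous_const.mul hσ.cont.abs
  have hks : HasCompactSupport fun z => L * ε * |σ z| :=
    (hσ.2.comp_left (g := fun t => |t|) abs_zero).mul_left
  have h := young (k := fun z => L * ε * |σ z|) (w := w)
    (R := fun x => cv (fun y => A y * w y) σ x - A x * cv w σ x) hkc hks
    (fun z => by positivity) hw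
    (((cv_smooth hAw hσ).continuous.sub (hA.mul (cv_smooth hwl hσ).continuous)).aestronglyMeasurable)
    (fun x => by
      have e : cv (fun y => A y * w y) σ x - A x * cv w σ x =
          ∫ y, (A y * w y * σ (x - y) - A x * (w y * σ (x - y))) := by
        rw [integral_sub (cv_int hAw hσ x) ((cv_int hwl hσ x).const_mul _), integral_const_mul]
        rfl
      rw [e, ← Real.norm_eq_abs]
      refine norm_integral_le_of_norm_le ?_ (Eventually.of_forall fun y => ?_)
      · refine ((cv_int hwl hσ x).abs.const_mul (L * ε)).congr (Eventually.of_forall fun y => ?_)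
        simp only [abs_mul]
        ring
      · by_cases hy : σ (x - y) = 0
        · simp [hy]
        · have h1 := hs (subset_tsupport _ hy)
          rw [mem_closedBall_zero_iff] at h1
          have h2 : |A y - A x| ≤ L * ε := by
            rw [abs_sub_comm]
            exact (hL x y).trans (mul_le_mul_of_nonneg_left h1 hL0)
          rw [show A y * w y * σ (x - y) - A x * (w y * σ (x - y)) =
            (A y - A x) * (w y * σ (x - y)) by ring, Real.norm_eq_abs, abs_mul, abs_mul]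
          calc |A y - A x| * (|w y| * |σ (x - y)|) ≤ L * ε * (|w y| * |σ (x - y)|) := by gcongr
            _ = _ := by ring)
  refine ⟨h.1, h.2.trans (mul_le_mul_of_nonneg_right ?_ (N2_nonneg _))⟩
  rw [integral_const_mul, mul_assoc]
  exact mul_le_mul_of_nonneg_left hM hL0

theorem cv_N2 {f ρ : E n → ℝ} (hf : MemLp f 2 volume) (hρ : Ts ρ) (hρ0 : ∀ z, 0 ≤ ρ z)
    (h1 : ∫ z, ρ z = 1) : MemLp (cv f ρ) 2 volume ∧ N2 (cv f ρ) ≤ N2 f := by
  have hfl : LocallyIntegrable f := hf.locallyIntegrable (by norm_num)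
  have h := young (k := ρ) (w := f) (R := cv f ρ) hρ.cont hρ.2 hρ0 hf
    (cv_smooth hfl hρ).continuous.aestronglyMeasurable fun x => by
      rw [← Real.norm_eq_abs]
      refine (norm_integral_le_integral_norm _).trans (le_of_eq ?_)
      congr 1; funext y
      rw [norm_mul, Real.norm_eq_abs, Real.norm_eq_abs, abs_of_nonneg (hρ0 _)]
  rwa [h1, one_mul] at h

section
variable {A : Fin n → Fin n → E n → ℝ} (hA : ∀ i j, Continuous (A i j)) {L lam : ℝ} (hL0 : 0 ≤ L)
  (hL : ∀ i j x y, |A i j x - A i j y| ≤ L * ‖x - y‖) (hlam : 0 < lam)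
  (hell : ∀ x (v : Fin n → ℝ), lam * ∑ i, v i ^ 2 ≤ ∑ i, ∑ j, A i j x * v i * v j)
  {u f : E n → ℝ} {w : Fin n → E n → ℝ} (hu : MemLp u 2 volume) (huc : HasCompactSupport u)
  (hw : ∀ i, MemLp (w i) 2 volume) (hf : MemLp f 2 volume)
  (hwk : ∀ i φ, Ts φ → ∫ x, u x * pderiv i φ x = -∫ x, w i x * φ x)
  (heq : ∀ φ, Ts φ → ∑ i, ∑ j, ∫ x, A i j x * w i x * pderiv j φ x = -∫ x, f x * φ x)
include hA hL0 hL hlam hell hu huc hw hf hwk heq

theorem apriori {ρ : E n → ℝ} {ε M : ℝ} (hε : 0 ≤ ε) (hM0 : 0 ≤ M) (hρ : Ts ρ) (hρ0 : ∀ z, 0 ≤ ρ z)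
    (hs : tsupport ρ ⊆ closedBall 0 ε) (h1 : ∫ z, ρ z = 1)
    (hM : ∀ k, ε * ∫ z, |pderiv k ρ z| ≤ M) (k l : Fin n) :
    N2 (pderiv k (pderiv l (cv u ρ))) ≤ (N2 f + ∑ i : Fin n, ∑ j : Fin n, L * M * N2 (w i)) / lam := by
  have hul : LocallyIntegrable u := hu.locallyIntegrable (by norm_num)
  have hwl : ∀ i, LocallyIntegrable (w i) := fun i => (hw i).locallyIntegrable (by norm_num)
  have hAw : ∀ i j, LocallyIntegrable fun y => A i j y * w i y :=
    fun i j => (hwl i).continuous_mul (hA i j)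
  have hv : Ts (cv u ρ) := cv_Ts hul huc hρ
  have hdv : ∀ i, pderiv i (cv u ρ) = cv (w i) ρ := by
    intro i
    funext x
    have h := hwk i _ (hρ.refl x)
    simp only [pd_refl hρ, mul_neg, integral_neg, neg_inj] at h
    rw [cv_pd hul hρ]
    exact h
  let G : Fin n → Fin n → E n → ℝ := fun i j => cv (fun y => A i j y * w i y) ρ
  have hG : ∀ i j, ContDiff ℝ ∞ (G i j) := fun i j => cv_smooth (hAw i j) hρ
  have hdiv : ∀ x, cv f ρ x = ∑ i, ∑ j, pderiv j (G i j) x := by
    intro x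
    have h := heq _ (hρ.refl x)
    simp only [pd_refl hρ, mul_neg, integral_neg, Finset.sum_neg_distrib, neg_inj] at h
    simp only [G, cv_pd (hAw _ _) hρ]
    exact h.symm
  let p : Fin n → E n → ℝ := fun j => pderiv k (pderiv j (cv u ρ))
  have hp : ∀ j, Ts (p j) := fun j => (hv.pd j).pd k
  have hpe : ∀ j, p j = cv (w j) (pderiv k ρ) := fun j => by
    simp only [p, hdv, cv_pd (hwl j) hρ]
  let R : Fin n → Fin n → E n → ℝ := fun i j x => pderiv k (G i j) x - A i j x * p i x
  have hR : ∀ i j, MemLp (R i j) 2 volume ∧ N2 (R i j) ≤ L * M * N2 (w i) := by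
    intro i j
    have h := commut (hA i j) hL0 hε (hL i j) (hw i) (hρ.pd k) ((pd_tsupport ρ k).trans hs) (hM k)
    simp only [R, G, cv_pd (hAw _ _) hρ, hpe]
    exact h
  have hswap : ∀ i j, ∫ x, pderiv j (G i j) x * p k x = ∫ x, pderiv k (G i j) x * p j x := by
    intro i j
    have a1 := ibp (hG i j) (hp k) j
    have a2 := ibp (hG i j) (hp j) k
    have e : pderiv j (p k) = pderiv k (p j) := by
      simp only [p]
      rw [pd_comm (hv.pd k).1 j k, pd_comm hv.1 j k]
    rw [e, a2] at a1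
    exact (neg_inj.1 a1).symm
  have hAp : ∀ i j, Integrable fun x => A i j x * p i x * p j x :=
    fun i j => (hp j).int_mul ((hA i j).mul (hp i).cont)
  have hRp : ∀ i j, Integrable fun x => R i j x * p j x :=
    fun i j => (hR i j).1.integrable_mul (hp j).memLp
  have e1 : ∫ x, cv f ρ x * p k x =
      (∑ i, ∑ j, ∫ x, A i j x * p i x * p j x) + ∑ i, ∑ j, ∫ x, R i j x * p j x := by
    simp only [hdiv, Finset.sum_mul]
    rw [integral_finsetSum _ fun i _ => integrable_finsetSum _ fun j _ =>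
      (hp k).int_mul (pd_smooth (hG i j) j).continuous, ← Finset.sum_add_distrib]
    refine Finset.sum_congr rfl fun i _ => ?_
    rw [integral_finsetSum _ fun j _ => (hp k).int_mul (pd_smooth (hG i j) j).continuous,
      ← Finset.sum_add_distrib]
    refine Finset.sum_congr rfl fun j _ => ?_
    rw [hswap, ← integral_add (hAp i j) (hRp i j)]
    congr 1; funext x
    simp only [R]; ring
  have e2 : lam * ∑ j, N2 (p j) ^ 2 ≤ ∑ i, ∑ j, ∫ x, A i j x * p i x * p j x := by
    have i1 : ∀ j, Integrable fun x => p j x ^ 2 := fun j => (hp j).memLp.integrable_sq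
    calc lam * ∑ j, N2 (p j) ^ 2 = ∫ x, lam * ∑ j, p j x ^ 2 := by
          rw [integral_const_mul, integral_finsetSum _ fun j _ => i1 j]
          simp only [N2_sq]
      _ ≤ ∫ x, ∑ i, ∑ j, A i j x * p i x * p j x :=
          integral_mono ((integrable_finsetSum _ fun j _ => i1 j).const_mul _)
            (integrable_finsetSum _ fun i _ => integrable_finsetSum _ fun j _ => hAp i j)
            fun x => hell x fun i => p i x
      _ = _ := by
          rw [integral_finsetSum _ fun i _ => integrable_finsetSum _ fun j _ => hAp i j]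
          exact Finset.sum_congr rfl fun i _ => integral_finsetSum _ fun j _ => hAp i j
  set Q := Real.sqrt (∑ j, N2 (p j) ^ 2) with hQ
  have hQ0 : 0 ≤ Q := Real.sqrt_nonneg _
  have hQ2 : Q ^ 2 = ∑ j, N2 (p j) ^ 2 := Real.sq_sqrt (Finset.sum_nonneg fun j _ => sq_nonneg _)
  have hpQ : ∀ j, N2 (p j) ≤ Q := fun j => Real.le_sqrt_of_sq_le
    (Finset.single_le_sum (f := fun j => N2 (p j) ^ 2) (fun j _ => sq_nonneg _) (Finset.mem_univ j))
  obtain ⟨hfρ, hfN⟩ := cv_N2 hf hρ hρ0 h1
  have b1 : ∫ x, cv f ρ x * p k x ≤ N2 f * Q :=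
    (le_abs_self _).trans ((cs hfρ (hp k).memLp).trans
      (mul_le_mul hfN (hpQ k) (N2_nonneg _) (N2_nonneg _)))
  have b2 : -(∑ i, ∑ j, ∫ x, R i j x * p j x) ≤ (∑ i : Fin n, ∑ j : Fin n, L * M * N2 (w i)) * Q := by
    rw [← Finset.sum_neg_distrib, Finset.sum_mul]
    refine Finset.sum_le_sum fun i _ => ?_
    rw [← Finset.sum_neg_distrib, Finset.sum_mul]
    refine Finset.sum_le_sum fun j _ => ?_
    exact (neg_le_abs _).trans ((cs (hR i j).1 (hp j).memLp).trans
      (mul_le_mul (hR i j).2 (hpQ j) (N2_nonneg _)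
        (mul_nonneg (mul_nonneg hL0 hM0) (N2_nonneg _))))
  have hD : 0 ≤ N2 f + ∑ i : Fin n, ∑ j : Fin n, L * M * N2 (w i) :=
    add_nonneg (N2_nonneg _) (Finset.sum_nonneg fun i _ => Finset.sum_nonneg fun j _ =>
      mul_nonneg (mul_nonneg hL0 hM0) (N2_nonneg _))
  have b3 : lam * Q * Q ≤ (N2 f + ∑ i : Fin n, ∑ j : Fin n, L * M * N2 (w i)) * Q := by
    rw [← hQ2] at e2
    nlinarith
  refine (hpQ l).trans ?_
  rw [le_div_iff₀ hlam, mul_comm]
  rcases hQ0.eq_or_lt with h0 | h0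
  · rw [← h0, mul_zero]; exact hD
  · exact le_of_mul_le_mul_right b3 h0

theorem core : ∃ C, 0 ≤ C ∧ ∀ k l φ, Ts φ → |∫ x, u x * pderiv k (pderiv l φ) x| ≤ C * N2 φ := by
  obtain ⟨M, hM0, hM⟩ := exists_moll (n := n)
  have hD : 0 ≤ N2 f + ∑ i : Fin n, ∑ j : Fin n, L * M * N2 (w i) :=
    add_nonneg (N2_nonneg _) (Finset.sum_nonneg fun i _ => Finset.sum_nonneg fun j _ =>
      mul_nonneg (mul_nonneg hL0 hM0) (N2_nonneg _))
  refine ⟨_, div_nonneg hD hlam.le, fun k l φ hφ => ?_⟩
  have hul : LocallyIntegrable u := hu.locallyIntegrable (by norm_num)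
  have hui : Integrable u := (integrableOn_iff_integrable_of_support_subset (subset_tsupport u)).1
    (hul.integrableOn_isCompact huc)
  have hψ := (hφ.pd l).pd k
  obtain ⟨L', hL'0, hL'⟩ := hψ.lip
  have hI : 0 ≤ L' * ∫ x, |u x| := mul_nonneg hL'0 (integral_nonneg fun x => abs_nonneg _)
  refine le_of_forall_pos_le_add fun δ hδ => ?_
  have hε : 0 < δ / (L' * (∫ x, |u x|) + 1) := by positivity
  obtain ⟨ρ, hρ, hρ0, hs, h1, hMk⟩ := hM _ hε
  have hv : Ts (cv u ρ) := cv_Ts hul huc hρ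
  have c1 := cv_close hui hψ hL'0 hL' hρ hρ0 hs h1
  have c2 := apriori hA hL0 hL hlam hell hu huc hw hf hwk heq hε.le hM0 hρ hρ0 hs h1 hMk l k
  have c3 : ∫ x, cv u ρ x * pderiv k (pderiv l φ) x = ∫ x, pderiv l (pderiv k (cv u ρ)) x * φ x := by
    rw [ibp hv.1 (hφ.pd l) k, ibp (hv.pd k).1 hφ l, neg_neg]
  have c4 := (cs ((hv.pd k).pd l).memLp hφ.memLp).trans
    (mul_le_mul_of_nonneg_right c2 (N2_nonneg _))
  rw [← c3] at c4
  have c5 : L' * (δ / (L' * (∫ x, |u x|) + 1)) * ∫ x, |u x| ≤ δ := by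
    rw [show L' * (δ / (L' * (∫ x, |u x|) + 1)) * ∫ x, |u x| =
      δ * (L' * ∫ x, |u x|) / (L' * (∫ x, |u x|) + 1) by ring, div_le_iff₀ (by positivity)]
    nlinarith
  have c6 := abs_sub_abs_le_abs_sub (∫ x, u x * pderiv k (pderiv l φ) x)
    (∫ x, cv u ρ x * pderiv k (pderiv l φ) x)
  rw [abs_sub_comm] at c6
  linarith

end

end Crest.Agent.R247.Reg
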