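import Crest.Agent.R247.Reg.Base

/-! # Row 247, block Reg: functionals on test functions and local Sobolev classes -/

set_option autoImplicit false
set_option linter.unusedSectionVars false
set_option linter.unusedVariables false
open MeasureTheory Filter Set Metric
open scoped ENNReal NNReal Topology ContDiff Manifold
open Crest.GeometryTopology.CoordMetric

noncomputable section
namespace Crest.Agent.R247.Reg

variable {n : ℕ} {Ω : Set (E n)}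

theorem exists_cut (hΩ : IsOpen Ω) {K : Set (E n)} (hK : IsCompact K) (hKΩ : K ⊆ Ω) :
    ∃ χ : E n → ℝ, Ts χ ∧ tsupport χ ⊆ Ω ∧ (∀ x ∈ K, χ x = 1) ∧ ∀ x, χ x ∈ Icc (0 : ℝ) 1 := by
  obtain ⟨K', hK', h1, h2⟩ := exists_compact_between hK hΩ hKΩ
  obtain ⟨f, f1, f0, f01⟩ := exists_contMDiffMap_one_nhds_of_subset_interior 𝓘(ℝ, E n) (n := ⊤)
    hK.isClosed h1
  have hs : tsupport f ⊆ K' :=
    closure_minimal (fun x hx => by_contra fun h => hx (f0 x h)) hK'.isClosed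
  exact ⟨f, ⟨f.contMDiff.contDiff, hK'.of_isClosed_subset (isClosed_tsupport _) hs⟩, hs.trans h2,
    fun x hx => f1.self_of_nhdsSet x hx, f01⟩

theorem ev_zero {φ : E n → ℝ} {x : E n} (hx : x ∉ tsupport φ) : φ =ᶠ[𝓝 x] 0 :=
  notMem_tsupport_iff_eventuallyEq.1 hx

theorem Ts.mulOn (hΩ : IsOpen Ω) {a φ : E n → ℝ} (ha : ContDiffOn ℝ ∞ a Ω) (hφ : Ts φ)
    (hs : tsupport φ ⊆ Ω) : Ts fun x => a x * φ x := by
  refine ⟨contDiff_iff_contDiffAt.2 fun x => ?_, hφ.2.mul_left⟩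
  by_cases hx : x ∈ Ω
  · exact (ha.contDiffAt (hΩ.mem_nhds hx)).mul hφ.1.contDiffAt
  · refine (contDiffAt_const (c := (0 : ℝ))).congr_of_eventuallyEq ?_
    filter_upwards [ev_zero fun h => hx (hs h)] with y hy
    simp [hy]

/-- Test functions supported in `Ω`. -/
def Dz (Ω : Set (E n)) : Submodule ℝ (E n → ℝ) where
  carrier := {φ | Ts φ ∧ tsupport φ ⊆ Ω}
  add_mem' := fun {φ ψ} hφ hψ => ⟨⟨hφ.1.1.add hψ.1.1, hφ.1.2.add hψ.1.2⟩,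
    (tsupport_add φ ψ).trans (union_subset hφ.2 hψ.2)⟩
  zero_mem' := ⟨⟨contDiff_const, HasCompactSupport.zero⟩, by simp⟩
  smul_mem' := fun c φ hφ => ⟨⟨hφ.1.1.const_smul c, hφ.1.2.smul_left⟩,
    (tsupport_smul_subset_right (fun _ => c) φ).trans hφ.2⟩

theorem Dz.ts (φ : Dz Ω) : Ts φ.1 := φ.2.1
theorem Dz.sub (φ : Dz Ω) : tsupport φ.1 ⊆ Ω := φ.2.2
theorem Dz.diff (φ : Dz Ω) (x : E n) : DifferentiableAt ℝ φ.1 x :=
  φ.2.1.1.differentiable (by simp) x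

/-- Partial derivative on test functions. -/
def pdL (Ω : Set (E n)) (i : Fin n) : Dz Ω →ₗ[ℝ] Dz Ω where
  toFun φ := ⟨pderiv i φ.1, (Dz.ts φ).pd i, (pd_tsupport _ i).trans (Dz.sub φ)⟩
  map_add' φ ψ := Subtype.ext (funext fun x => by
    change fderiv ℝ (φ.1 + ψ.1) x _ = fderiv ℝ φ.1 x _ + fderiv ℝ ψ.1 x _
    rw [fderiv_add (Dz.diff φ x) (Dz.diff ψ x)]; rfl)
  map_smul' c φ := Subtype.ext (funext fun x => by
    change fderiv ℝ (c • φ.1) x _ = c • fderiv ℝ φ.1 x _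
    rw [fderiv_const_smul (Dz.diff φ x)]; rfl)

theorem pdL_val (i : Fin n) (φ : Dz Ω) : (pdL Ω i φ).1 = pderiv i φ.1 := rfl

/-- Coefficients smooth on `Ω`. -/
abbrev Cz (Ω : Set (E n)) : Type := {a : E n → ℝ // ContDiffOn ℝ ∞ a Ω}

/-- Derivative of a coefficient. -/
def Cz.pd (hΩ : IsOpen Ω) (a : Cz Ω) (i : Fin n) : Cz Ω := ⟨pderiv i a.1, pd_smoothOn hΩ a.2 i⟩

/-- Multiplication by a coefficient. -/
def mulL (hΩ : IsOpen Ω) (a : Cz Ω) : Dz Ω →ₗ[ℝ] Dz Ω where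
  toFun φ := ⟨fun x => a.1 x * φ.1 x, (Dz.ts φ).mulOn hΩ a.2 (Dz.sub φ),
    (tsupport_mul_subset_right (f := a.1) (g := φ.1)).trans (Dz.sub φ)⟩
  map_add' φ ψ := Subtype.ext (funext fun x => mul_add _ _ _)
  map_smul' c φ := Subtype.ext (funext fun x => by
    change a.1 x * (c * φ.1 x) = c * (a.1 x * φ.1 x); ring)

theorem mulL_val (hΩ : IsOpen Ω) (a : Cz Ω) (φ : Dz Ω) :
    (mulL hΩ a φ).1 = fun x => a.1 x * φ.1 x := rfl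

/-- Multiplication by a cutoff. -/
def cutL (χ : Dz Ω) : Dz (univ : Set (E n)) →ₗ[ℝ] Dz Ω where
  toFun φ := ⟨fun x => χ.1 x * φ.1 x,
    ⟨(Dz.ts χ).1.mul (Dz.ts φ).1, (Dz.ts φ).2.mul_left⟩,
    (tsupport_mul_subset_left (f := χ.1) (g := φ.1)).trans (Dz.sub χ)⟩
  map_add' φ ψ := Subtype.ext (funext fun x => mul_add _ _ _)
  map_smul' c φ := Subtype.ext (funext fun x => by
    change χ.1 x * (c * φ.1 x) = c * (χ.1 x * φ.1 x); ring)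

theorem cutL_val (χ : Dz Ω) (φ : Dz (univ : Set (E n))) :
    (cutL χ φ).1 = fun x => χ.1 x * φ.1 x := rfl

theorem pdL_comm (i j : Fin n) (φ : Dz Ω) : pdL Ω i (pdL Ω j φ) = pdL Ω j (pdL Ω i φ) :=
  Subtype.ext (pd_comm (Dz.ts φ).1 i j)

theorem mul_pd (hΩ : IsOpen Ω) (a : Cz Ω) (i : Fin n) (φ : Dz Ω) :
    mulL hΩ a (pdL Ω i φ) = pdL Ω i (mulL hΩ a φ) - mulL hΩ (a.pd hΩ i) φ := by
  refine Subtype.ext (funext fun x => ?_)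
  change a.1 x * pderiv i φ.1 x = pderiv i (fun x => a.1 x * φ.1 x) x - pderiv i a.1 x * φ.1 x
  by_cases hx : x ∈ Ω
  · rw [pd_mul ((a.2.contDiffAt (hΩ.mem_nhds hx)).differentiableAt (by simp)) (Dz.diff φ x)]
    ring
  · have h0 := ev_zero fun h => hx (Dz.sub φ h)
    have h1 : (fun x => a.1 x * φ.1 x) =ᶠ[𝓝 x] 0 := by
      filter_upwards [h0] with y hy
      simp [hy]
    have h2 : φ.1 x = 0 := h0.self_of_nhds
    simp [pderiv, h0.fderiv_eq, h1.fderiv_eq, h2]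

theorem cut_pd (χ : Dz Ω) (i : Fin n) (φ : Dz (univ : Set (E n))) :
    cutL χ (pdL univ i φ) = pdL Ω i (cutL χ φ) - cutL (pdL Ω i χ) φ := by
  refine Subtype.ext (funext fun x => ?_)
  change χ.1 x * pderiv i φ.1 x = pderiv i (fun x => χ.1 x * φ.1 x) x - pderiv i χ.1 x * φ.1 x
  rw [pd_mul (Dz.diff χ x) (Dz.diff φ x)]
  ring

theorem cut_mul (hΩ : IsOpen Ω) (χ : Dz Ω) (a : Cz Ω) (A : Cz (univ : Set (E n)))
    (h : ∀ x ∈ tsupport χ.1, A.1 x = a.1 x) (φ : Dz (univ : Set (E n))) :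
    cutL χ (mulL isOpen_univ A φ) = mulL hΩ a (cutL χ φ) := by
  refine Subtype.ext (funext fun x => ?_)
  change χ.1 x * (A.1 x * φ.1 x) = a.1 x * (χ.1 x * φ.1 x)
  by_cases hx : χ.1 x = 0
  · simp [hx]
  · rw [h x (subset_tsupport _ hx)]; ring

/-- Locally `L²`-bounded functionals. -/
def Bd (T : Dz Ω →ₗ[ℝ] ℝ) : Prop :=
  ∀ K, IsCompact K → K ⊆ Ω → ∃ C, 0 ≤ C ∧ ∀ φ : Dz Ω, tsupport φ.1 ⊆ K → |T φ| ≤ C * N2 φ.1

theorem Bd.add {T S : Dz Ω →ₗ[ℝ] ℝ} (hT : Bd T) (hS : Bd S) : Bd (T + S) := by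
  intro K hK hKΩ
  obtain ⟨C, hC, h⟩ := hT K hK hKΩ
  obtain ⟨C', hC', h'⟩ := hS K hK hKΩ
  refine ⟨C + C', add_nonneg hC hC', fun φ hφ => ?_⟩
  rw [LinearMap.add_apply, add_mul]
  exact (abs_add_le _ _).trans (add_le_add (h φ hφ) (h' φ hφ))

theorem Bd.neg {T : Dz Ω →ₗ[ℝ] ℝ} (hT : Bd T) : Bd (-T) := by
  intro K hK hKΩ
  obtain ⟨C, hC, h⟩ := hT K hK hKΩ
  exact ⟨C, hC, fun φ hφ => by rw [LinearMap.neg_apply, abs_neg]; exact h φ hφ⟩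

theorem Bd.zero : Bd (0 : Dz Ω →ₗ[ℝ] ℝ) := fun K _ _ => ⟨0, le_rfl, fun φ _ => by simp⟩

theorem Bd.mul (hΩ : IsOpen Ω) {T : Dz Ω →ₗ[ℝ] ℝ} (hT : Bd T) (a : Cz Ω) :
    Bd (T ∘ₗ mulL hΩ a) := by
  intro K hK hKΩ
  obtain ⟨C, hC, h⟩ := hT K hK hKΩ
  obtain ⟨M, hM⟩ := hK.exists_bound_of_continuousOn (a.2.continuousOn.mono hKΩ)
  refine ⟨C * |M|, mul_nonneg hC (abs_nonneg _), fun φ hφ => ?_⟩
  refine (h (mulL hΩ a φ) ((tsupport_mul_subset_right (f := a.1) (g := φ.1)).trans hφ)).trans ?_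
  rw [mul_assoc]
  refine mul_le_mul_of_nonneg_left (N2_le (Dz.ts φ).memLp (abs_nonneg _) fun x => ?_) hC
  rw [mulL_val]
  by_cases hx : φ.1 x = 0
  · simp [hx]
  · rw [abs_mul]
    exact mul_le_mul_of_nonneg_right ((hM x (hφ (subset_tsupport _ hx))).trans (le_abs_self M))
      (abs_nonneg _)

/-- Local Sobolev classes. -/
def Hk : ℕ → (Dz Ω →ₗ[ℝ] ℝ) → Prop
  | 0, T => Bd T
  | k + 1, T => Bd T ∧ ∀ i, Hk k (T ∘ₗ pdL Ω i)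

theorem Hk.bd {k : ℕ} {T : Dz Ω →ₗ[ℝ] ℝ} (h : Hk k T) : Bd T := by
  cases k with
  | zero => exact h
  | succ k => exact h.1

theorem Hk.mono : ∀ {k : ℕ} {T : Dz Ω →ₗ[ℝ] ℝ}, Hk (k + 1) T → Hk k T
  | 0, _, h => h.1
  | _ + 1, _, h => ⟨h.1, fun i => (h.2 i).mono⟩

theorem Hk.add : ∀ {k : ℕ} {T S : Dz Ω →ₗ[ℝ] ℝ}, Hk k T → Hk k S → Hk k (T + S)
  | 0, _, _, h, h' => Bd.add h h'
  | _ + 1, _, _, h, h' => ⟨h.1.add h'.1, fun i => by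
      rw [LinearMap.add_comp]; exact (h.2 i).add (h'.2 i)⟩

theorem Hk.neg : ∀ {k : ℕ} {T : Dz Ω →ₗ[ℝ] ℝ}, Hk k T → Hk k (-T)
  | 0, _, h => Bd.neg h
  | _ + 1, _, h => ⟨h.1.neg, fun i => by rw [LinearMap.neg_comp]; exact (h.2 i).neg⟩

theorem Hk.zero : ∀ {k : ℕ}, Hk k (0 : Dz Ω →ₗ[ℝ] ℝ)
  | 0 => Bd.zero
  | _ + 1 => ⟨Bd.zero, fun i => by rw [LinearMap.zero_comp]; exact Hk.zero⟩

theorem Hk.sum {k : ℕ} {ι : Type*} (s : Finset ι) {T : ι → Dz Ω →ₗ[ℝ] ℝ}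
    (h : ∀ i ∈ s, Hk k (T i)) : Hk k (∑ i ∈ s, T i) :=
  Finset.sum_induction T (Hk k) (fun _ _ => Hk.add) Hk.zero h

theorem Hk.mul (hΩ : IsOpen Ω) : ∀ {k : ℕ} {T : Dz Ω →ₗ[ℝ] ℝ}, Hk k T → ∀ a : Cz Ω,
    Hk k (T ∘ₗ mulL hΩ a)
  | 0, _, h, a => Bd.mul hΩ h a
  | k + 1, T, h, a => ⟨h.1.mul hΩ a, fun i => by
      have e : (T ∘ₗ mulL hΩ a) ∘ₗ pdL Ω i =
          (T ∘ₗ pdL Ω i) ∘ₗ mulL hΩ a + -(T ∘ₗ mulL hΩ (a.pd hΩ i)) :=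
        LinearMap.ext fun φ => by
          simp only [LinearMap.comp_apply, LinearMap.add_apply, LinearMap.neg_apply, mul_pd,
            map_add, map_neg, sub_eq_add_neg]
      rw [e]
      exact (Hk.mul hΩ (h.2 i) a).add (Hk.mul hΩ h.mono _).neg⟩

/-- The (formal adjoint of the) divergence form operator. -/
def Lop (hΩ : IsOpen Ω) (a : Fin n → Fin n → Cz Ω) : Dz Ω →ₗ[ℝ] Dz Ω :=
  ∑ i, ∑ j, pdL Ω i ∘ₗ mulL hΩ (a i j) ∘ₗ pdL Ω j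

theorem Lop_apply (hΩ : IsOpen Ω) (a : Fin n → Fin n → Cz Ω) (φ : Dz Ω) :
    Lop hΩ a φ = ∑ i, ∑ j, pdL Ω i (mulL hΩ (a i j) (pdL Ω j φ)) := by
  simp only [Lop, LinearMap.sum_apply, LinearMap.comp_apply]

theorem pd_Lop (hΩ : IsOpen Ω) (a : Fin n → Fin n → Cz Ω) (l : Fin n) (φ : Dz Ω) :
    pdL Ω l (Lop hΩ a φ) = Lop hΩ a (pdL Ω l φ) +
      ∑ i, ∑ j, pdL Ω i (mulL hΩ ((a i j).pd hΩ l) (pdL Ω j φ)) := by
  simp only [Lop_apply, map_sum, ← Finset.sum_add_distrib]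
  refine Finset.sum_congr rfl fun i _ => Finset.sum_congr rfl fun j _ => ?_
  rw [pdL_comm l i, ← map_add, pdL_comm j l, mul_pd hΩ (a i j) l, sub_add_cancel]

/-- The bootstrap, given the `H²` step. -/
theorem boot (hΩ : IsOpen Ω) (a : Fin n → Fin n → Cz Ω)
    (key : ∀ T : Dz Ω →ₗ[ℝ] ℝ, Hk 1 T → Bd (T ∘ₗ Lop hΩ a) → Hk 2 T) :
    ∀ (k : ℕ) (T : Dz Ω →ₗ[ℝ] ℝ), Hk (k + 1) T → Hk k (T ∘ₗ Lop hΩ a) → Hk (k + 2) T
  | 0, T, h, h' => key T h h'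
  | k + 1, T, h, h' => ⟨h.1, fun l => boot hΩ a key k _ (h.2 l) (by
      have e : (T ∘ₗ pdL Ω l) ∘ₗ Lop hΩ a = (T ∘ₗ Lop hΩ a) ∘ₗ pdL Ω l +
          ∑ i, ∑ j, ((T ∘ₗ pdL Ω i) ∘ₗ mulL hΩ ((a i j).pd hΩ l)) ∘ₗ pdL Ω j :=
        LinearMap.ext fun φ => by
          simp only [LinearMap.comp_apply, LinearMap.add_apply, LinearMap.sum_apply, pd_Lop,
            map_add, map_sum]
      rw [e]
      exact (h'.2 l).add (Hk.sum _ fun i _ => Hk.sum _ fun j _ =>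
        (Hk.mul hΩ (h.2 i) _).2 j))⟩

end Crest.Agent.R247.Reg
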