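import Crest.Agent.R247.Reg.Dist
import Crest.Agent.R247.Reg.Core

/-! # Row 247, block Reg: the `H²` step for functionals -/

set_option autoImplicit false
set_option linter.unusedSectionVars false
set_option linter.unusedVariables false
open MeasureTheory Filter Set Metric
open scoped ENNReal NNReal Topology ContDiff
open Crest.GeometryTopology.CoordMetric

noncomputable section
namespace Crest.Agent.R247.Reg

variable {n : ℕ} {Ω : Set (E n)}

theorem unif_ell {K : Set (E n)} (hK : IsCompact K) {a : Fin n → Fin n → E n → ℝ}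
    (ha : ∀ i j, ContinuousOn (a i j) K)
    (hp : ∀ x ∈ K, ∀ v : Fin n → ℝ, v ≠ 0 → 0 < ∑ i, ∑ j, a i j x * v i * v j) :
    ∃ lam : ℝ, 0 < lam ∧ ∀ x ∈ K, ∀ v : Fin n → ℝ,
      lam * ∑ i, v i ^ 2 ≤ ∑ i, ∑ j, a i j x * v i * v j := by
  let S : Set (Fin n → ℝ) := {v | ∑ i, v i ^ 2 = 1}
  have hS : IsCompact S := by
    refine Metric.isCompact_of_isClosed_isBounded (isClosed_eq (by fun_prop) continuous_const)
      ((isBounded_closedBall (x := (0 : Fin n → ℝ)) (r := 1)).subset fun v hv => ?_)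
    rw [mem_closedBall_zero_iff, pi_norm_le_iff_of_nonneg zero_le_one]
    intro i
    have h1 : v i ^ 2 ≤ ∑ i, v i ^ 2 :=
      Finset.single_le_sum (f := fun i => v i ^ 2) (fun i _ => sq_nonneg _) (Finset.mem_univ i)
    rw [show ∑ i, v i ^ 2 = 1 from hv] at h1
    rw [Real.norm_eq_abs]
    exact (sq_le_one_iff_abs_le_one _).1 h1
  have hc : ContinuousOn (fun p : E n × (Fin n → ℝ) => ∑ i, ∑ j, a i j p.1 * p.2 i * p.2 j)
      (K ×ˢ S) := by
    refine continuousOn_finsetSum _ fun i _ => continuousOn_finsetSum _ fun j _ => ?_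
    exact (((ha i j).comp continuousOn_fst fun p hp => hp.1).mul (by fun_prop)).mul (by fun_prop)
  obtain ⟨lam, hlam, h⟩ := (hK.prod hS).exists_forall_le' hc (a := 0) fun p hp' =>
    hp p.1 hp'.1 p.2 fun h0 => by
      have : ∑ i, p.2 i ^ 2 = 1 := hp'.2
      simp [h0] at this
  refine ⟨lam, hlam, fun x hx v => ?_⟩
  have h0 : 0 ≤ ∑ i, v i ^ 2 := Finset.sum_nonneg fun i _ => sq_nonneg _
  rcases h0.eq_or_lt with h1 | h1
  · have : ∀ i, v i = 0 := fun i => pow_eq_zero_iff two_ne_zero |>.1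
      ((Finset.sum_eq_zero_iff_of_nonneg fun i _ => sq_nonneg (v i)).1 h1.symm i (Finset.mem_univ i))
    simp [this]
  · set s := ∑ i, v i ^ 2 with hs
    have hr : 0 < Real.sqrt s := Real.sqrt_pos.2 h1
    have hr2 : Real.sqrt s ^ 2 = s := Real.sq_sqrt h0
    have h2 := h (x, fun i => v i / Real.sqrt s) ⟨hx, by
      change ∑ i, (v i / Real.sqrt s) ^ 2 = 1
      simp only [div_pow, hr2, ← Finset.sum_div]
      exact div_self h1.ne'⟩
    have e : (∑ i, ∑ j, a i j x * (v i / Real.sqrt s) * (v j / Real.sqrt s)) =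
        (∑ i, ∑ j, a i j x * v i * v j) / s := by
      simp only [Finset.sum_div]
      refine Finset.sum_congr rfl fun i _ => Finset.sum_congr rfl fun j _ => ?_
      conv_rhs => rw [← hr2]
      field_simp
    simp only [e] at h2
    rwa [le_div_iff₀ h1] at h2

/-- Globally `L²`-bounded functionals. -/
def BG (S : Dz (univ : Set (E n)) →ₗ[ℝ] ℝ) : Prop := ∃ C, 0 ≤ C ∧ ∀ φ, |S φ| ≤ C * N2 φ.1

theorem BG.add {T S : Dz (univ : Set (E n)) →ₗ[ℝ] ℝ} (hT : BG T) (hS : BG S) : BG (T + S) := by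
  obtain ⟨C, hC, h⟩ := hT
  obtain ⟨C', hC', h'⟩ := hS
  refine ⟨C + C', add_nonneg hC hC', fun φ => ?_⟩
  rw [LinearMap.add_apply, add_mul]
  exact (abs_add_le _ _).trans (add_le_add (h φ) (h' φ))

theorem BG.neg {T : Dz (univ : Set (E n)) →ₗ[ℝ] ℝ} (hT : BG T) : BG (-T) := by
  obtain ⟨C, hC, h⟩ := hT
  exact ⟨C, hC, fun φ => by rw [LinearMap.neg_apply, abs_neg]; exact h φ⟩

theorem BG.sum {ι : Type*} (s : Finset ι) {T : ι → Dz (univ : Set (E n)) →ₗ[ℝ] ℝ}
    (h : ∀ i ∈ s, BG (T i)) : BG (∑ i ∈ s, T i) :=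
  Finset.sum_induction T BG (fun _ _ => BG.add) ⟨0, le_rfl, fun φ => by simp⟩ h

theorem Bd.cut {T : Dz Ω →ₗ[ℝ] ℝ} (hT : Bd T) (χ : Dz Ω) : BG (T ∘ₗ cutL χ) := by
  obtain ⟨C, hC, h⟩ := hT _ (Dz.ts χ).2 (Dz.sub χ)
  obtain ⟨M, hM⟩ := (Dz.ts χ).cont.bounded_above_of_compact_support (Dz.ts χ).2
  refine ⟨C * |M|, mul_nonneg hC (abs_nonneg _), fun φ => ?_⟩
  refine (h (cutL χ φ) (tsupport_mul_subset_left (f := χ.1) (g := φ.1))).trans ?_
  rw [mul_assoc]
  refine mul_le_mul_of_nonneg_left (N2_le (Dz.ts φ).memLp (abs_nonneg _) fun x => ?_) hC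
  rw [cutL_val, abs_mul]
  exact mul_le_mul_of_nonneg_right ((hM x).trans (le_abs_self M)) (abs_nonneg _)

theorem Hk.cut_pd {T : Dz Ω →ₗ[ℝ] ℝ} (hT : Hk 1 T) (χ : Dz Ω) (j : Fin n) :
    BG ((T ∘ₗ cutL χ) ∘ₗ pdL univ j) := by
  have e : (T ∘ₗ cutL χ) ∘ₗ pdL univ j = (T ∘ₗ pdL Ω j) ∘ₗ cutL χ + -(T ∘ₗ cutL (pdL Ω j χ)) :=
    LinearMap.ext fun φ => by
      simp only [LinearMap.comp_apply, LinearMap.add_apply, LinearMap.neg_apply, Reg.cut_pd,
        map_add, map_neg, sub_eq_add_neg]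
  rw [e]
  exact (Bd.cut (hT.2 j) χ).add (hT.1.cut _).neg

/-- A global test function as an element of `Dz univ`. -/
def Ts.mk {φ : E n → ℝ} (h : Ts φ) : Dz (univ : Set (E n)) := ⟨φ, h, subset_univ _⟩

theorem BG.rep {S : Dz (univ : Set (E n)) →ₗ[ℝ] ℝ} (h : BG S) :
    ∃ g : E n → ℝ, MemLp g 2 volume ∧ ∀ φ, S φ = ∫ x, g x * φ.1 x := by
  obtain ⟨C, hC, h⟩ := h
  exact riesz (Dz univ).subtype (fun v => (Dz.ts v).memLp) S hC h

theorem key (hΩ : IsOpen Ω) (a : Fin n → Fin n → Cz Ω)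
    (hp : ∀ x ∈ Ω, ∀ v : Fin n → ℝ, v ≠ 0 → 0 < ∑ i, ∑ j, (a i j).1 x * v i * v j)
    (T : Dz Ω →ₗ[ℝ] ℝ) (h1 : Hk 1 T) (hL : Bd (T ∘ₗ Lop hΩ a)) : Hk 2 T := by
  classical
  refine ⟨h1.1, fun k => ⟨h1.2 k, fun l => ?_⟩⟩
  intro K hK hKΩ
  obtain ⟨χ, hχ, hχΩ, hχ1, -⟩ := exists_cut hΩ hK hKΩ
  obtain ⟨η, hη, hηΩ, hη1, hη01⟩ := exists_cut hΩ hχ.2 hχΩ
  let X : Dz Ω := ⟨χ, hχ, hχΩ⟩
  obtain ⟨lam, hlam, hell⟩ := unif_ell hη.2 (a := fun i j => (a i j).1)
    (fun i j => (a i j).2.continuousOn.mono hηΩ) fun x hx => hp x (hηΩ hx)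
  -- the extended coefficients
  let d : Fin n → Fin n → ℝ := fun i j => if i = j then 1 else 0
  have hB : ∀ i j, Ts fun x => ((a i j).1 x - d i j) * η x := fun i j =>
    hη.mulOn hΩ ((a i j).2.sub contDiffOn_const) hηΩ
  let A : Fin n → Fin n → Cz (univ : Set (E n)) := fun i j =>
    ⟨fun x => ((a i j).1 x - d i j) * η x + d i j, ((hB i j).1.add contDiff_const).contDiffOn⟩
  have hAv : ∀ i j x, (A i j).1 x = ((a i j).1 x - d i j) * η x + d i j := fun _ _ _ => rfl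
  have hAs : ∀ i j, ContDiff ℝ ∞ (A i j).1 := fun i j => (hB i j).1.add contDiff_const
  have hAa : ∀ i j, ∀ x ∈ tsupport χ, (A i j).1 x = (a i j).1 x := fun i j x hx => by
    rw [hAv, hη1 x hx]; ring
  choose L hL0 hLip using fun i j => (hB i j).lip
  have hLA : ∀ i j x y, |(A i j).1 x - (A i j).1 y| ≤ (∑ i, ∑ j, L i j) * ‖x - y‖ := by
    intro i j x y
    rw [hAv, hAv, add_sub_add_right_eq_sub]
    refine (hLip i j x y).trans (mul_le_mul_of_nonneg_right ?_ (norm_nonneg _))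
    exact (Finset.single_le_sum (f := fun j => L i j) (fun j _ => hL0 i j) (Finset.mem_univ j)).trans
      (Finset.single_le_sum (f := fun i => ∑ j, L i j)
        (fun i _ => Finset.sum_nonneg fun j _ => hL0 i j) (Finset.mem_univ i))
  have hellA : ∀ x (v : Fin n → ℝ),
      min lam 1 * ∑ i, v i ^ 2 ≤ ∑ i, ∑ j, (A i j).1 x * v i * v j := by
    intro x v
    have h0 : 0 ≤ ∑ i, v i ^ 2 := Finset.sum_nonneg fun i _ => sq_nonneg _
    have e : ∑ i, ∑ j, (A i j).1 x * v i * v j =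
        η x * (∑ i, ∑ j, (a i j).1 x * v i * v j) + (1 - η x) * ∑ i, v i ^ 2 := by
      simp only [Finset.mul_sum, ← Finset.sum_add_distrib]
      refine Finset.sum_congr rfl fun i _ => ?_
      have e2 : (1 - η x) * v i ^ 2 = ∑ j, (1 - η x) * d i j * v i * v j := by
        rw [Finset.sum_eq_single i (fun j _ hj => by simp [d, Ne.symm hj]) (by simp)]
        simp [d]; ring
      rw [e2, ← Finset.sum_add_distrib]
      refine Finset.sum_congr rfl fun j _ => ?_
      rw [hAv]; ring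
    rw [e]
    have m1 := mul_le_mul_of_nonneg_right (min_le_left lam 1) h0
    have m2 := mul_le_mul_of_nonneg_right (min_le_right lam 1) h0
    by_cases hx : η x = 0
    · simpa [hx] using m2
    · have h3 := hell x (subset_tsupport _ hx) v
      have h4 := (hη01 x).1
      have h5 := (hη01 x).2
      nlinarith [mul_le_mul_of_nonneg_left (m1.trans h3) h4,
        mul_le_mul_of_nonneg_left m2 (sub_nonneg.2 h5)]
  -- the representing functions
  obtain ⟨u₀, hu₀, ru₀⟩ := (h1.1.cut X).rep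
  have hu : MemLp (fun x => u₀ x * η x) 2 volume := by
    refine hu₀.of_le (hu₀.1.mul hη.cont.aestronglyMeasurable) (Eventually.of_forall fun x => ?_)
    rw [norm_mul]
    refine mul_le_of_le_one_right (norm_nonneg _) ?_
    rw [Real.norm_eq_abs, abs_of_nonneg (hη01 x).1]
    exact (hη01 x).2
  have ru : ∀ φ : Dz (univ : Set (E n)), T (cutL X φ) = ∫ x, u₀ x * η x * φ.1 x := by
    intro φ
    have e : cutL X φ = cutL X (mulL isOpen_univ ⟨η, hη.1.contDiffOn⟩ φ) := by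
      refine Subtype.ext (funext fun x => ?_)
      change χ x * φ.1 x = χ x * (η x * φ.1 x)
      by_cases hx : χ x = 0
      · simp [hx]
      · rw [hη1 x (subset_tsupport _ hx), one_mul]
    rw [e]
    refine (ru₀ _).trans ?_
    simp only [mulL_val, mul_assoc]
  choose w hw rw' using fun i => (h1.cut_pd X i).neg.rep
  have hf : BG ((T ∘ₗ cutL X) ∘ₗ Lop isOpen_univ A) := by
    have e : (T ∘ₗ cutL X) ∘ₗ Lop isOpen_univ A = (T ∘ₗ Lop hΩ a) ∘ₗ cutL X +
        ∑ i, ∑ j, (-(((T ∘ₗ pdL Ω i) ∘ₗ mulL hΩ (a i j)) ∘ₗ cutL (pdL Ω j X)) +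
          -(((T ∘ₗ mulL hΩ (a i j)) ∘ₗ cutL (pdL Ω i X)) ∘ₗ pdL univ j)) :=
      LinearMap.ext fun φ => by
        simp only [LinearMap.comp_apply, LinearMap.add_apply, LinearMap.neg_apply,
          LinearMap.sum_apply, Lop_apply, map_sum, ← Finset.sum_add_distrib]
        refine Finset.sum_congr rfl fun i _ => Finset.sum_congr rfl fun j _ => ?_
        rw [cut_pd X i, cut_mul hΩ X (a i j) (A i j) (hAa i j),
          cut_mul hΩ (pdL Ω i X) (a i j) (A i j) fun x hx => hAa i j x (pd_tsupport χ i hx),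
          cut_pd X j]
        simp only [map_sub]
        ring
    rw [e]
    exact (hL.cut X).add (BG.sum _ fun i _ => BG.sum _ fun j _ =>
      ((Bd.mul hΩ (h1.2 i) _).cut _).neg.add ((Hk.mul hΩ h1 _).cut_pd _ j).neg)
  obtain ⟨f, hf2, rf⟩ := hf.rep
  have hwk : ∀ i φ, Ts φ → ∫ x, u₀ x * η x * pderiv i φ x = -∫ x, w i x * φ x := by
    intro i φ hφ
    have a1 := ru (pdL univ i hφ.mk)
    have a2 := rw' i hφ.mk
    simp only [LinearMap.neg_apply, LinearMap.comp_apply] at a2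
    rw [a1] at a2
    exact neg_eq_iff_eq_neg.1 a2
  have heq : ∀ φ, Ts φ → ∑ i, ∑ j, ∫ x, (A i j).1 x * w i x * pderiv j φ x = -∫ x, f x * φ x := by
    intro φ hφ
    have a1 := rf hφ.mk
    simp only [LinearMap.comp_apply, Lop_apply, map_sum] at a1
    refine Eq.trans ?_ (congrArg Neg.neg a1)
    simp only [← Finset.sum_neg_distrib]
    refine Finset.sum_congr rfl fun i _ => Finset.sum_congr rfl fun j _ => ?_
    have a2 := rw' i (mulL isOpen_univ (A i j) (pdL univ j hφ.mk))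
    simp only [LinearMap.neg_apply, LinearMap.comp_apply] at a2
    rw [a2]
    congr 1; funext x
    change _ = w i x * ((A i j).1 x * pderiv j φ x)
    ring
  obtain ⟨C, hC, hcore⟩ := core (A := fun i j => (A i j).1) (fun i j => (hAs i j).continuous)
    (Finset.sum_nonneg fun i _ => Finset.sum_nonneg fun j _ => hL0 i j) hLA
    (lt_min hlam one_pos) hellA hu hη.2.mul_left hw hf2 hwk heq
  refine ⟨C, hC, fun φ hφ => ?_⟩
  have hψ := ((Dz.ts φ).pd l).pd k
  have e : pdL Ω k (pdL Ω l φ) = cutL X hψ.mk := by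
    refine Subtype.ext (funext fun x => ?_)
    change pderiv k (pderiv l φ.1) x = χ x * pderiv k (pderiv l φ.1) x
    by_cases hx : pderiv k (pderiv l φ.1) x = 0
    · simp [hx]
    · rw [hχ1 x (hφ (pd_tsupport _ l (pd_tsupport _ k (subset_tsupport _ hx)))), one_mul]
  simp only [LinearMap.comp_apply]
  rw [e, ru]
  exact hcore k l φ.1 (Dz.ts φ)

end Crest.Agent.R247.Reg
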