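import Crest.Agent.R247.Reg.Base

/-! # Row 247, block Reg: mollifiers -/

set_option autoImplicit false
set_option linter.unusedSectionVars false
set_option linter.unusedVariables false
open MeasureTheory Filter Set Metric
open scoped ENNReal NNReal Topology ContDiff
open Crest.GeometryTopology.CoordMetric

noncomputable section
namespace Crest.Agent.R247.Reg

variable {n : ℕ}

/-- Convolution. -/
def cv (g ρ : E n → ℝ) (x : E n) : ℝ := ∫ y, g y * ρ (x - y)

theorem cv_eq (g ρ : E n → ℝ) :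
    cv g ρ = convolution g ρ (ContinuousLinearMap.mul ℝ ℝ) volume := rfl

theorem cv_int {g ρ : E n → ℝ} (hg : LocallyIntegrable g) (hρ : Ts ρ) (x : E n) :
    Integrable fun y => g y * ρ (x - y) :=
  hρ.2.convolutionExists_right (ContinuousLinearMap.mul ℝ ℝ) hg hρ.cont x

theorem cv_smooth {g ρ : E n → ℝ} (hg : LocallyIntegrable g) (hρ : Ts ρ) :
    ContDiff ℝ ∞ (cv g ρ) :=
  hρ.2.contDiff_convolution_right (ContinuousLinearMap.mul ℝ ℝ) hg hρ.1

theorem cv_pd {g ρ : E n → ℝ} (hg : LocallyIntegrable g) (hρ : Ts ρ) (i : Fin n) :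
    pderiv i (cv g ρ) = cv g (pderiv i ρ) := by
  funext x
  have h1 : ContDiff ℝ 1 ρ := hρ.1.of_le ENat.LEInfty.out
  have h := hρ.2.hasFDerivAt_convolution_right (ContinuousLinearMap.mul ℝ ℝ) hg h1 x
  unfold pderiv
  rw [cv_eq, h.fderiv, convolution_precompR_apply _ hg (hρ.2.fderiv ℝ)
    (h1.continuous_fderiv one_ne_zero)]
  rfl

theorem cv_Ts {g ρ : E n → ℝ} (hg : LocallyIntegrable g) (hgc : HasCompactSupport g) (hρ : Ts ρ) :
    Ts (cv g ρ) :=
  ⟨cv_smooth hg hρ, hgc.convolution (ContinuousLinearMap.mul ℝ ℝ) hρ.2⟩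

theorem Ts.refl {ρ : E n → ℝ} (hρ : Ts ρ) (x : E n) : Ts fun y => ρ (x - y) :=
  ⟨hρ.1.comp (contDiff_const.sub contDiff_id), hρ.2.comp_homeomorph (Homeomorph.subLeft x)⟩

theorem pd_refl {ρ : E n → ℝ} (hρ : Ts ρ) (x : E n) (i : Fin n) (y : E n) :
    pderiv i (fun y => ρ (x - y)) y = -pderiv i ρ (x - y) := by
  have h1 : HasFDerivAt ρ (fderiv ℝ ρ (x - y)) (x - y) :=
    (hρ.1.differentiable (by simp) _).hasFDerivAt
  have h2 : HasFDerivAt (fun y : E n => x - y) (-ContinuousLinearMap.id ℝ (E n)) y :=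
    (hasFDerivAt_id y).const_sub x
  have h3 := h1.comp y h2
  unfold pderiv
  rw [show (fun y => ρ (x - y)) = ρ ∘ fun y => x - y from rfl, h3.fderiv]
  simp

theorem exists_moll : ∃ M : ℝ, 0 ≤ M ∧ ∀ ε : ℝ, 0 < ε → ∃ ρ : E n → ℝ, Ts ρ ∧ (∀ z, 0 ≤ ρ z) ∧
    tsupport ρ ⊆ closedBall 0 ε ∧ ∫ z, ρ z = 1 ∧ ∀ k, ε * ∫ z, |pderiv k ρ z| ≤ M := by
  let b : ContDiffBump (0 : E n) := ⟨1 / 2, 1, by norm_num, by norm_num⟩
  let r : E n → ℝ := b.normed volume
  have hr : ContDiff ℝ ∞ r := b.contDiff_normed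
  refine ⟨∑ k, ∫ z, |pderiv k r z|,
    Finset.sum_nonneg fun k _ => integral_nonneg fun z => abs_nonneg _, fun ε hε => ?_⟩
  have hc : 0 < (ε ^ Module.finrank ℝ (E n))⁻¹ := by positivity
  have hsupp : tsupport (fun z : E n => (ε ^ Module.finrank ℝ (E n))⁻¹ * r (ε⁻¹ • z)) ⊆
      closedBall 0 ε := by
    refine closure_minimal (fun z hz => ?_) isClosed_closedBall
    have h1 : ε⁻¹ • z ∈ Function.support r := fun h => hz (by simp [h])
    rw [b.support_normed_eq, mem_ball_zero_iff, norm_smul, norm_inv, Real.norm_eq_abs,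
      abs_of_pos hε, inv_mul_lt_iff₀ hε] at h1
    rw [mem_closedBall_zero_iff]
    simpa [b] using h1.le
  refine ⟨fun z => (ε ^ Module.finrank ℝ (E n))⁻¹ * r (ε⁻¹ • z),
    ⟨contDiff_const.mul (hr.comp (contDiff_const_smul _)),
      (isCompact_closedBall 0 ε).of_isClosed_subset (isClosed_tsupport _) hsupp⟩,
    fun z => mul_nonneg hc.le (b.nonneg_normed _), hsupp, ?_, fun k => ?_⟩
  · rw [integral_const_mul, Measure.integral_comp_inv_smul_of_nonneg volume r hε.le,
      b.integral_normed]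
    field_simp
    simp
  · have hpd : ∀ z, pderiv k (fun z : E n => (ε ^ Module.finrank ℝ (E n))⁻¹ * r (ε⁻¹ • z)) z =
        (ε ^ Module.finrank ℝ (E n))⁻¹ * ε⁻¹ * pderiv k r (ε⁻¹ • z) := by
      intro z
      have h1 : HasFDerivAt r (fderiv ℝ r (ε⁻¹ • z)) (ε⁻¹ • z) :=
        (hr.differentiable (by simp) _).hasFDerivAt
      have h2 : HasFDerivAt (fun z : E n => ε⁻¹ • z) (ε⁻¹ • ContinuousLinearMap.id ℝ (E n)) z :=
        (hasFDerivAt_id z).const_smul ε⁻¹
      have h3 := (h1.comp z h2).const_mul (ε ^ Module.finrank ℝ (E n))⁻¹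
      unfold pderiv
      rw [show (fun z : E n => (ε ^ Module.finrank ℝ (E n))⁻¹ * r (ε⁻¹ • z)) =
        fun y => (ε ^ Module.finrank ℝ (E n))⁻¹ * (r ∘ fun z : E n => ε⁻¹ • z) y from rfl, h3.fderiv]
      simp only [smul_apply, ContinuousLinearMap.comp_apply, ContinuousLinearMap.id_apply, map_smul,
        smul_eq_mul]
      ring
    simp only [hpd, abs_mul, abs_of_pos hc, abs_of_pos (inv_pos.2 hε)]
    rw [integral_const_mul, Measure.integral_comp_inv_smul_of_nonneg volume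
      (fun z => |pderiv k r z|) hε.le]
    have : ε * ((ε ^ Module.finrank ℝ (E n))⁻¹ * ε⁻¹ *
        ε ^ Module.finrank ℝ (E n) • ∫ z, |pderiv k r z|) = ∫ z, |pderiv k r z| := by
      rw [smul_eq_mul]
      field_simp
    rw [this]
    exact Finset.single_le_sum (f := fun k => ∫ z, |pderiv k r z|)
      (fun k _ => integral_nonneg fun z => abs_nonneg _) (Finset.mem_univ k)

theorem Ts.lip {ψ : E n → ℝ} (hψ : Ts ψ) : ∃ L : ℝ, 0 ≤ L ∧ ∀ x y, |ψ x - ψ y| ≤ L * ‖x - y‖ := by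
  obtain ⟨C, hC⟩ := hψ.1.lipschitzWith_of_hasCompactSupport hψ.2 (by simp)
  refine ⟨C, C.2, fun x y => ?_⟩
  have := hC.dist_le_mul x y
  rwa [Real.dist_eq, dist_eq_norm] at this

/-- Weak convergence of the mollifications. -/
theorem cv_close {u ψ ρ : E n → ℝ} (hu : Integrable u) (hψ : Ts ψ) {L ε : ℝ} (hL0 : 0 ≤ L)
    (hL : ∀ x y, |ψ x - ψ y| ≤ L * ‖x - y‖) (hρ : Ts ρ) (hρ0 : ∀ z, 0 ≤ ρ z)
    (hs : tsupport ρ ⊆ closedBall 0 ε) (h1 : ∫ z, ρ z = 1) :
    |(∫ x, cv u ρ x * ψ x) - ∫ x, u x * ψ x| ≤ L * ε * ∫ x, |u x| := by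
  obtain ⟨B, hB⟩ := hψ.cont.bounded_above_of_compact_support hψ.2
  have hI : Integrable (fun p : E n × E n => u p.2 * ρ (p.1 - p.2) * ψ p.1)
      (volume.prod volume) :=
    (hu.convolution_integrand (ContinuousLinearMap.mul ℝ ℝ) hρ.integrable).mul_bdd
      (hψ.cont.comp continuous_fst).aestronglyMeasurable (Eventually.of_forall fun p => hB p.1)
  have e1 : (∫ x, cv u ρ x * ψ x) = ∫ y, u y * ∫ x, ρ (x - y) * ψ x := by
    calc (∫ x, cv u ρ x * ψ x) = ∫ x, ∫ y, u y * ρ (x - y) * ψ x := by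
          congr 1; funext x; rw [integral_mul_const]; rfl
      _ = ∫ y, ∫ x, u y * ρ (x - y) * ψ x := integral_integral_swap hI
      _ = _ := by
          congr 1; funext y; rw [← integral_const_mul]; congr 1; funext x; ring
  have hI2 : Integrable fun y => u y * ∫ x, ρ (x - y) * ψ x := by
    refine hI.integral_prod_right.congr (Eventually.of_forall fun y => ?_)
    simp only
    rw [← integral_const_mul]; congr 1; funext x; ring
  have hI3 : Integrable fun y => u y * ψ y :=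
    hu.mul_bdd hψ.cont.aestronglyMeasurable (Eventually.of_forall hB)
  have hpt : ∀ y, |(∫ x, ρ (x - y) * ψ x) - ψ y| ≤ L * ε := by
    intro y
    have hρy : Integrable fun x => ρ (x - y) := hρ.integrable.comp_sub_right y
    have h1y : ∫ x, ρ (x - y) = 1 := by rw [integral_sub_right_eq_self ρ y, h1]
    have i1 : Integrable fun x => ρ (x - y) * ψ x :=
      hρy.mul_bdd hψ.cont.aestronglyMeasurable (Eventually.of_forall hB)
    have e2 : (∫ x, ρ (x - y) * ψ x) - ψ y = ∫ x, (ρ (x - y) * ψ x - ρ (x - y) * ψ y) := by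
      rw [integral_sub i1 (hρy.mul_const _), integral_mul_const, h1y, one_mul]
    rw [e2, ← Real.norm_eq_abs]
    refine (norm_integral_le_of_norm_le (hρy.mul_const (L * ε))
      (Eventually.of_forall fun x => ?_)).trans (le_of_eq ?_)
    · rw [← mul_sub, norm_mul, Real.norm_eq_abs, abs_of_nonneg (hρ0 _), Real.norm_eq_abs]
      by_cases hx : ρ (x - y) = 0
      · simp [hx]
      · have := hs (subset_tsupport _ hx)
        rw [mem_closedBall_zero_iff] at this
        exact mul_le_mul_of_nonneg_left ((hL x y).trans (mul_le_mul_of_nonneg_left this hL0))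
          (hρ0 _)
    · rw [integral_mul_const, h1y, one_mul]
  rw [e1, ← integral_sub hI2 hI3, ← Real.norm_eq_abs, ← integral_const_mul]
  refine norm_integral_le_of_norm_le (hu.abs.const_mul _) (Eventually.of_forall fun y => ?_)
  rw [← mul_sub, norm_mul, mul_comm, Real.norm_eq_abs, Real.norm_eq_abs]
  exact mul_le_mul_of_nonneg_right (hpt y) (abs_nonneg _)

end Crest.Agent.R247.Reg
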